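import Mathlib

namespace Vale.Agent.Lib.P199

open Finset

variable {F D : Type*} [Field F] [DivisionRing D] [Algebra F D]

/-- Independence lemma: if the centre of the division ring `D` is (the image of) `F`, the family
`y` is linearly independent over `F`, and `∑ i, z i * x * y i = 0` for every `x`, then `z = 0`. -/
theorem sandwich_indep
    (hF : ∀ z : D, (∀ x : D, z * x = x * z) → z ∈ Set.range (algebraMap F D))
    {ι : Type*} [Fintype ι] (y : ι → D) (hy : LinearIndependent F y) :
    ∀ (z : ι → D), (∀ x : D, ∑ i, z i * x * y i = 0) → z = 0 := by
  classical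
  intro z
  induction' h : (Finset.univ.filter (fun i => z i ≠ 0)).card using Nat.strong_induction_on
    with r ih generalizing z
  intro hz
  by_contra hne
  obtain ⟨i0, hi0⟩ : ∃ i, z i ≠ 0 := by
    by_contra hcon
    simp only [not_exists, not_not] at hcon
    exact hne (funext hcon)
  set z' : ι → D := fun i => z i * (z i0)⁻¹ with hz'
  have hz'0 : ∀ x : D, ∑ i, z' i * x * y i = 0 := by
    intro x
    have := hz ((z i0)⁻¹ * x)
    simpa [hz', mul_assoc] using this
  have hz'1 : z' i0 = 1 := by simp [hz', hi0]
  have hcent : ∀ d : D, ∀ i, z' i * d = d * z' i := by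
    intro d
    set w : ι → D := fun i => z' i * d - d * z' i with hw
    have hw0 : ∀ x : D, ∑ i, w i * x * y i = 0 := by
      intro x
      have h1 := hz'0 (d * x)
      have h2 := congrArg (fun t => d * t) (hz'0 x)
      simp only [mul_zero, Finset.mul_sum] at h2
      calc ∑ i, w i * x * y i
          = ∑ i, z' i * (d * x) * y i - ∑ i, d * (z' i * x * y i) := by
            rw [← Finset.sum_sub_distrib]
            apply Finset.sum_congr rfl
            intro i _
            simp only [hw]
            noncomm_ring
        _ = 0 := by rw [h1, h2]; simp
    have hcard : (Finset.univ.filter (fun i => w i ≠ 0)).card < r := by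
      rw [← h]
      apply Finset.card_lt_card
      constructor
      · intro i hi
        simp only [Finset.mem_filter, Finset.mem_univ, true_and] at hi ⊢
        intro hzi
        apply hi
        simp [hw, hz', hzi]
      · intro hsub
        have : i0 ∈ Finset.univ.filter (fun i => w i ≠ 0) := hsub (by simp [hi0])
        simp [hw, hz'1] at this
    have hw00 := ih _ hcard w rfl hw0
    intro i
    have := congrFun hw00 i
    simpa [hw, sub_eq_zero] using this
  have hrange : ∀ i, ∃ c : F, algebraMap F D c = z' i := fun i =>
    hF (z' i) (fun x => hcent x i)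
  choose c hc using hrange
  have hsum : ∑ i, c i • y i = 0 := by
    have := hz'0 1
    rw [← this]
    apply Finset.sum_congr rfl
    intro i _
    rw [← hc i, Algebra.smul_def, mul_one]
  have hc0 := (Fintype.linearIndependent_iff.mp hy) c hsum i0
  have : z' i0 = 0 := by rw [← hc i0, hc0, map_zero]
  rw [hz'1] at this
  exact one_ne_zero this

end Vale.Agent.Lib.P199
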