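import Mathlib
import Vale.Agent.Lib.P199.Sandwich

namespace Vale.Agent.Lib.P199

open Finset Polynomial

variable {F D : Type*} [Field F] [DivisionRing D] [Algebra F D]

theorem coeff_iterate_divX (f : F[X]) (j i : ℕ) :
    ((divX^[j]) f).coeff i = f.coeff (i + j) := by
  induction j generalizing i with
  | zero => simp
  | succ j ih =>
    rw [Function.iterate_succ_apply', coeff_divX, ih]
    congr 1
    omega

theorem aeval_iterate_divX (f : F[X]) (a' : D) (j : ℕ) :
    aeval a' ((divX^[j]) f)
      = a' * aeval a' ((divX^[j + 1]) f) + algebraMap F D (f.coeff j) := by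
  have h := divX_mul_X_add ((divX^[j]) f)
  rw [mul_comm] at h
  have h2 := congrArg (aeval a') h
  rw [Function.iterate_succ_apply', ← h2]
  simp only [map_add, map_mul, aeval_X, aeval_C]
  rw [coeff_iterate_divX, zero_add]

theorem iterate_divX_natDegree (f : F[X]) (hf : f.Monic) :
    (divX^[f.natDegree]) f = 1 := by
  ext i
  rw [coeff_iterate_divX, coeff_one]
  by_cases hi : i = 0
  · subst hi
    simp [hf.coeff_natDegree]
  · rw [if_neg hi]
    apply coeff_eq_zero_of_natDegree_lt
    omega

/-- Dickson-type conjugacy: if `a` is algebraic over the centre `F` of the division ring `D`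
and `a'` is a root in `D` of the minimal polynomial of `a`, then there is `u ≠ 0` with
`a' * u = u * a`. -/
theorem exists_conj
    (hF : ∀ z : D, (∀ x : D, z * x = x * z) → z ∈ Set.range (algebraMap F D))
    (a a' : D) (ha : IsIntegral F a) (hroot : aeval a' (minpoly F a) = 0) :
    ∃ u : D, u ≠ 0 ∧ a' * u = u * a := by
  classical
  set f := minpoly F a with hf
  set n := f.natDegree with hn
  have hmonic : f.Monic := minpoly.monic ha
  have hnpos : 0 < n := minpoly.natDegree_pos ha
  set w : ℕ → D := fun j => aeval a' ((divX^[j]) f) with hw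
  have hw0 : w 0 = 0 := by simpa [hw] using hroot
  have hwn : w n = 1 := by
    simp only [hw, hn]
    rw [iterate_divX_natDegree f hmonic, map_one]
  have hrec : ∀ j, w j = a' * w (j + 1) + algebraMap F D (f.coeff j) := fun j =>
    aeval_iterate_divX f a' j
  -- the key identity, valid for every x
  have key : ∀ x : D, a' * (∑ j ∈ range n, w (j + 1) * x * a ^ j)
      = (∑ j ∈ range n, w (j + 1) * x * a ^ j) * a := by
    intro x
    have h1 : a' * (∑ j ∈ range n, w (j + 1) * x * a ^ j)
        = ∑ j ∈ range n, (w j * x * a ^ j - algebraMap F D (f.coeff j) * x * a ^ j) := by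
      rw [Finset.mul_sum]
      apply Finset.sum_congr rfl
      intro j _
      rw [hrec j]
      noncomm_ring
    have h2 : (∑ j ∈ range n, w (j + 1) * x * a ^ j) * a
        = ∑ j ∈ range n, w (j + 1) * x * a ^ (j + 1) := by
      rw [Finset.sum_mul]
      apply Finset.sum_congr rfl
      intro j _
      rw [pow_succ]
      simp only [mul_assoc]
    have h3 : ∑ j ∈ range n, (w j * x * a ^ j - w (j + 1) * x * a ^ (j + 1))
        = w 0 * x * a ^ 0 - w n * x * a ^ n :=
      Finset.sum_range_sub' (fun j => w j * x * a ^ j) n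
    have h4 : aeval a f = 0 := minpoly.aeval F a
    rw [aeval_eq_sum_range, Finset.sum_range_succ, ← hn, hmonic.coeff_natDegree, one_smul] at h4
    have h5 : x * a ^ n = - ∑ j ∈ range n, algebraMap F D (f.coeff j) * x * a ^ j := by
      have : x * (∑ j ∈ range n, f.coeff j • a ^ j + a ^ n) = 0 := by rw [h4, mul_zero]
      rw [mul_add, Finset.mul_sum] at this
      rw [eq_neg_iff_add_eq_zero, add_comm, ← this]
      congr 1
      apply Finset.sum_congr rfl
      intro j _
      rw [Algebra.smul_def, ← mul_assoc, Algebra.commutes (f.coeff j) x]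
    rw [h1, h2, Finset.sum_sub_distrib]
    have h6 : ∑ j ∈ range n, w j * x * a ^ j
        = ∑ j ∈ range n, w (j + 1) * x * a ^ (j + 1) + (w 0 * x * a ^ 0 - w n * x * a ^ n) := by
      rw [← h3, Finset.sum_sub_distrib]; abel
    rw [h6, hw0, hwn, zero_mul, zero_mul, one_mul, h5]
    abel
  -- nonvanishing
  have hy : LinearIndependent F (fun i : Fin n => a ^ (i : ℕ)) := linearIndependent_pow a
  have hz : (fun i : Fin n => w ((i : ℕ) + 1)) ≠ 0 := by
    intro h0
    have := congrFun h0 ⟨n - 1, by omega⟩
    simp only [Pi.zero_apply] at this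
    rw [Nat.sub_add_cancel hnpos, hwn] at this
    exact one_ne_zero this
  have hex : ∃ x : D, ∑ i : Fin n, w ((i : ℕ) + 1) * x * a ^ (i : ℕ) ≠ 0 := by
    by_contra hcon
    simp only [not_exists, not_not] at hcon
    exact hz (sandwich_indep hF _ hy _ hcon)
  obtain ⟨x, hx⟩ := hex
  refine ⟨∑ j ∈ range n, w (j + 1) * x * a ^ j, ?_, key x⟩
  rwa [← Fin.sum_univ_eq_sum_range (fun j => w (j + 1) * x * a ^ j) n]

end Vale.Agent.Lib.P199
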