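import Mathlib
import Vale.Agent.Lib.P199.Dickson

namespace Vale.Agent.Lib.P199

open Polynomial

variable {F D : Type*} [Field F] [DivisionRing D] [Algebra F D]

theorem center_subset_range [Algebra.IsCentral F D] :
    ∀ z : D, (∀ x : D, z * x = x * z) → z ∈ Set.range (algebraMap F D) := by
  intro z hz
  have h1 : z ∈ Subalgebra.center F D := Subalgebra.mem_center_iff.mpr (fun b => (hz b).symm)
  have h2 : z ∈ (⊥ : Subalgebra F D) := Algebra.IsCentral.out h1
  exact Algebra.mem_bot.mp h2

/-- If `u` conjugates `a` to an element `a'` of `F[a]` and both `a` and `u` are integral over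
`F`, then the `F`-subalgebra generated by `a` and `u` is finite-dimensional. -/
theorem finiteDimensional_adjoin_pair (a a' u : D) (ha_int : IsIntegral F a)
    (hu_int : IsIntegral F u) (ha'mem : a' ∈ Algebra.adjoin F {a}) (hu : a' * u = u * a) :
    FiniteDimensional F (Algebra.adjoin F ({a, u} : Set D)) := by
  classical
  set Ka : Subalgebra F D := Algebra.adjoin F {a} with hKa
  set Fu : Subalgebra F D := Algebra.adjoin F {u} with hFu
  set W : Submodule F D := Subalgebra.toSubmodule Ka * Subalgebra.toSubmodule Fu with hW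
  have hWfg : W.FG := Submodule.FG.mul ha_int.fg_adjoin_singleton hu_int.fg_adjoin_singleton
  have ha_mem : a ∈ Ka := Algebra.self_mem_adjoin_singleton F a
  have hu_mem : u ∈ Fu := Algebra.self_mem_adjoin_singleton F u
  have hnorm : ∀ k ∈ Ka, ∃ k' ∈ Ka, u * k = k' * u := by
    intro k hk
    induction hk using Algebra.adjoin_induction with
    | mem x hx =>
      rw [Set.mem_singleton_iff] at hx
      subst hx
      exact ⟨a', ha'mem, hu.symm⟩
    | algebraMap r =>
      exact ⟨algebraMap F D r, Subalgebra.algebraMap_mem _ r, (Algebra.commutes r u).symm⟩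
    | add x y _ _ hx hy =>
      obtain ⟨x', hx', hx''⟩ := hx
      obtain ⟨y', hy', hy''⟩ := hy
      exact ⟨x' + y', Subalgebra.add_mem _ hx' hy', by rw [mul_add, add_mul, hx'', hy'']⟩
    | mul x y _ _ hx hy =>
      obtain ⟨x', hx', hx''⟩ := hx
      obtain ⟨y', hy', hy''⟩ := hy
      refine ⟨x' * y', Subalgebra.mul_mem _ hx' hy', ?_⟩
      rw [← mul_assoc, hx'', mul_assoc, hy'', mul_assoc]
  have hWa : ∀ w ∈ W, a * w ∈ W := by
    intro w hw
    refine Submodule.mul_induction_on hw ?_ ?_
    · intro k hk v hv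
      rw [← mul_assoc]
      exact Submodule.mul_mem_mul (Subalgebra.mul_mem _ ha_mem hk) hv
    · intro x y hx hy
      rw [mul_add]
      exact Submodule.add_mem _ hx hy
  have hWu : ∀ w ∈ W, u * w ∈ W := by
    intro w hw
    refine Submodule.mul_induction_on hw ?_ ?_
    · intro k hk v hv
      obtain ⟨k', hk', hk''⟩ := hnorm k hk
      rw [← mul_assoc, hk'', mul_assoc]
      exact Submodule.mul_mem_mul hk' (Subalgebra.mul_mem _ hu_mem hv)
    · intro x y hx hy
      rw [mul_add]
      exact Submodule.add_mem _ hx hy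
  have hstab : ∀ t ∈ Algebra.adjoin F ({a, u} : Set D), ∀ w ∈ W, t * w ∈ W := by
    intro t ht
    induction ht using Algebra.adjoin_induction with
    | mem x hx =>
      rcases hx with rfl | hx
      · exact hWa
      · rw [Set.mem_singleton_iff] at hx
        subst hx
        exact hWu
    | algebraMap r =>
      intro w hw
      rw [← Algebra.smul_def]
      exact Submodule.smul_mem _ r hw
    | add x y _ _ hx hy =>
      intro w hw
      rw [add_mul]
      exact Submodule.add_mem _ (hx w hw) (hy w hw)
    | mul x y _ _ hx hy =>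
      intro w hw
      rw [mul_assoc]
      exact hx _ (hy w hw)
  have hone : (1 : D) ∈ W := by
    have := Submodule.mul_mem_mul
      (show (1 : D) ∈ Subalgebra.toSubmodule Ka from Subalgebra.one_mem Ka)
      (show (1 : D) ∈ Subalgebra.toSubmodule Fu from Subalgebra.one_mem Fu)
    rwa [one_mul] at this
  have hle : Subalgebra.toSubmodule (Algebra.adjoin F ({a, u} : Set D)) ≤ W := by
    intro t ht
    have := hstab t ht 1 hone
    rwa [mul_one] at this
  have : FiniteDimensional F W := Module.Finite.iff_fg.mpr hWfg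
  have hfd : FiniteDimensional F (Subalgebra.toSubmodule (Algebra.adjoin F ({a, u} : Set D))) :=
    Submodule.finiteDimensional_of_le hle
  exact hfd

/-- Core step.  Let `D` be a division ring with centre `F`, algebraic over `F`, and let `a ∈ D`.
If the field `F[X]/(minpoly a)` has an `F`-automorphism `σ ≠ id`, then there is `u ∈ D` not
commuting with `a` such that the `F`-subalgebra generated by `a` and `u` is
finite-dimensional. -/
theorem exists_noncomm_fd [Algebra.IsCentral F D] [Algebra.IsAlgebraic F D] (a : D)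
    (f : F[X]) (hf : f = minpoly F a)
    (σ : AdjoinRoot f ≃ₐ[F] AdjoinRoot f) (hσ : σ ≠ AlgEquiv.refl) :
    ∃ u : D, a * u ≠ u * a ∧ FiniteDimensional F (Algebra.adjoin F ({a, u} : Set D)) := by
  classical
  have ha_int : IsIntegral F a := (Algebra.IsAlgebraic.isAlgebraic a).isIntegral
  have hirr : Irreducible f := hf ▸ minpoly.irreducible ha_int
  have : Fact (Irreducible f) := ⟨hirr⟩
  have hker : ∀ p : F[X], p ∈ Ideal.span ({f} : Set F[X]) → aeval a p = 0 := by
    intro p hp
    obtain ⟨q, rfl⟩ := Ideal.mem_span_singleton.mp hp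
    rw [map_mul, hf, minpoly.aeval, zero_mul]
  set φ : AdjoinRoot f →ₐ[F] D := Ideal.Quotient.liftₐ (Ideal.span {f}) (aeval a) hker with hφ
  have hφmk : ∀ p : F[X], φ (AdjoinRoot.mk f p) = aeval a p := fun p => rfl
  have hφroot : φ (AdjoinRoot.root f) = a := by
    rw [← AdjoinRoot.mk_X, hφmk, aeval_X]
  have hφinj : Function.Injective φ := (φ : AdjoinRoot f →+* D).injective
  have hσroot : σ (AdjoinRoot.root f) ≠ AdjoinRoot.root f := by
    intro h
    apply hσ
    have : (σ : AdjoinRoot f →ₐ[F] AdjoinRoot f) = AlgHom.id F (AdjoinRoot f) :=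
      AdjoinRoot.algHom_ext (by simpa using h)
    ext x
    exact congrArg (fun g : AdjoinRoot f →ₐ[F] AdjoinRoot f => g x) this
  set a' : D := φ (σ (AdjoinRoot.root f)) with ha'
  have ha'ne : a' ≠ a := by
    rw [ha', ← hφroot]
    exact fun h => hσroot (hφinj h)
  have ha'root : aeval a' f = 0 := by
    have h1 : aeval (AdjoinRoot.root f) f = 0 := by
      rw [AdjoinRoot.aeval_eq, AdjoinRoot.mk_self]
    have h2 : aeval (σ (AdjoinRoot.root f)) f = 0 := by
      rw [aeval_algHom_apply σ, h1, map_zero]
    rw [ha', aeval_algHom_apply φ, h2, map_zero]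
  have ha'mem : a' ∈ Algebra.adjoin F {a} := by
    obtain ⟨p, hp⟩ := AdjoinRoot.mk_surjective (σ (AdjoinRoot.root f))
    have : a' = aeval a p := by
      rw [ha', ← hp, hφmk]
    rw [this]
    exact aeval_mem_adjoin_singleton F a
  obtain ⟨u, hu0, hu⟩ := exists_conj center_subset_range a a' ha_int (hf ▸ ha'root)
  have hu_int : IsIntegral F u := (Algebra.IsAlgebraic.isAlgebraic u).isIntegral
  refine ⟨u, ?_, finiteDimensional_adjoin_pair a a' u ha_int hu_int ha'mem hu⟩
  intro hcomm
  rw [← hcomm] at hu
  exact ha'ne (mul_right_cancel₀ hu0 hu)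

end Vale.Agent.Lib.P199
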