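import Mathlib
import Vale.Agent.Lib.P199.Core

namespace Vale.Agent.Lib.P199

open Polynomial

/-- Two-field version of the core step.  Let `D` be a division ring with centre `Z`, let `E` be
a subfield of `Z` over which `D` is algebraic, and let `a ∈ D` have minimal polynomial over `Z`
with coefficients in `E`, say equal to the image of `g ∈ E[X]`.  If the `E`-algebra `E[X]/(g)`
has an automorphism `σ ≠ id`, then there is `u ∈ D` not commuting with `a` such that the
`E`-subalgebra generated by `a` and `u` is finite-dimensional over `E`. -/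
theorem exists_noncomm_fd_of_tower {E Z D : Type*} [Field E] [Field Z] [DivisionRing D]
    [Algebra E Z] [Algebra Z D] [Algebra E D] [IsScalarTower E Z D]
    [Algebra.IsCentral Z D] [Algebra.IsAlgebraic E D] (a : D)
    (g : E[X]) (hg : g.map (algebraMap E Z) = minpoly Z a)
    (σ : AdjoinRoot g ≃ₐ[E] AdjoinRoot g) (hσ : σ ≠ AlgEquiv.refl) :
    ∃ u : D, a * u ≠ u * a ∧ FiniteDimensional E (Algebra.adjoin E ({a, u} : Set D)) := by
  classical
  have ha_intE : IsIntegral E a := (Algebra.IsAlgebraic.isAlgebraic a).isIntegral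
  have ha_int : IsIntegral Z a := ha_intE.tower_top
  have hmonic : g.Monic :=
    monic_of_injective (algebraMap E Z).injective (hg ▸ minpoly.monic ha_int)
  have hirr : Irreducible g :=
    Monic.irreducible_of_irreducible_map (algebraMap E Z) g hmonic
      (hg ▸ minpoly.irreducible ha_int)
  have : Fact (Irreducible g) := ⟨hirr⟩
  have hga : aeval a g = 0 := by
    rw [← aeval_map_algebraMap Z a g, hg, minpoly.aeval]
  have hker : ∀ p : E[X], p ∈ Ideal.span ({g} : Set E[X]) → aeval a p = 0 := by
    intro p hp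
    obtain ⟨q, rfl⟩ := Ideal.mem_span_singleton.mp hp
    rw [map_mul, hga, zero_mul]
  set φ : AdjoinRoot g →ₐ[E] D := Ideal.Quotient.liftₐ (Ideal.span {g}) (aeval a) hker with hφ
  have hφmk : ∀ p : E[X], φ (AdjoinRoot.mk g p) = aeval a p := fun p => rfl
  have hφroot : φ (AdjoinRoot.root g) = a := by
    rw [← AdjoinRoot.mk_X, hφmk, aeval_X]
  have hφinj : Function.Injective φ := (φ : AdjoinRoot g →+* D).injective
  have hσroot : σ (AdjoinRoot.root g) ≠ AdjoinRoot.root g := by
    intro h
    apply hσ
    have : (σ : AdjoinRoot g →ₐ[E] AdjoinRoot g) = AlgHom.id E (AdjoinRoot g) :=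
      AdjoinRoot.algHom_ext (by simpa using h)
    ext x
    exact congrArg (fun t : AdjoinRoot g →ₐ[E] AdjoinRoot g => t x) this
  set a' : D := φ (σ (AdjoinRoot.root g)) with ha'
  have ha'ne : a' ≠ a := by
    rw [ha', ← hφroot]
    exact fun h => hσroot (hφinj h)
  have ha'root : aeval a' (minpoly Z a) = 0 := by
    have h1 : aeval (AdjoinRoot.root g) g = 0 := by
      rw [AdjoinRoot.aeval_eq, AdjoinRoot.mk_self]
    have h2 : aeval (σ (AdjoinRoot.root g)) g = 0 := by
      rw [aeval_algHom_apply σ, h1, map_zero]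
    rw [← hg, aeval_map_algebraMap Z a' g, ha', aeval_algHom_apply φ, h2, map_zero]
  have ha'mem : a' ∈ Algebra.adjoin E {a} := by
    obtain ⟨p, hp⟩ := AdjoinRoot.mk_surjective (σ (AdjoinRoot.root g))
    have : a' = aeval a p := by
      rw [ha', ← hp, hφmk]
    rw [this]
    exact aeval_mem_adjoin_singleton E a
  obtain ⟨u, hu0, hu⟩ := exists_conj center_subset_range a a' ha_int ha'root
  have hu_int : IsIntegral E u := (Algebra.IsAlgebraic.isAlgebraic u).isIntegral
  refine ⟨u, ?_, finiteDimensional_adjoin_pair a a' u ha_intE hu_int ha'mem hu⟩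
  intro hcomm
  rw [← hcomm] at hu
  exact ha'ne (mul_right_cancel₀ hu0 hu)

end Vale.Agent.Lib.P199
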