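import Mathlib
import Vale.Agent.Lib.P199.Tower

namespace Vale.Agent.Lib.P199

open Polynomial

universe u v

/-- In an algebra over a field in which all elements commute and are integral, every finite set
generates a finite-dimensional subalgebra. -/
theorem finiteDimensional_adjoin_of_comm {k D : Type*} [Field k] [Ring D] [Algebra k D]
    (hcomm : ∀ x y : D, x * y = y * x) (hint : ∀ x : D, IsIntegral k x)
    (S : Set D) (hS : S.Finite) : FiniteDimensional k (Algebra.adjoin k S) := by
  classical
  have key : (Subalgebra.toSubmodule (Algebra.adjoin k S)).FG := by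
    induction S, hS using Set.Finite.induction_on with
    | empty =>
      rw [Algebra.adjoin_empty]
      exact Subalgebra.fg_bot_toSubmodule
    | @insert x S hx hS ih =>
      set W : Submodule k D := Subalgebra.toSubmodule (Algebra.adjoin k S) *
        Subalgebra.toSubmodule (Algebra.adjoin k {x}) with hW
      have hWfg : W.FG := Submodule.FG.mul ih (hint x).fg_adjoin_singleton
      have hx_mem : x ∈ Algebra.adjoin k ({x} : Set D) := Algebra.self_mem_adjoin_singleton k x
      have hstab : ∀ t ∈ Algebra.adjoin k (insert x S), ∀ w ∈ W, t * w ∈ W := by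
        intro t ht
        induction ht using Algebra.adjoin_induction with
        | mem y hy =>
          intro w hw
          refine Submodule.mul_induction_on hw ?_ ?_
          · intro s hs v hv
            rcases hy with rfl | hy
            · rw [← mul_assoc, hcomm y s, mul_assoc]
              exact Submodule.mul_mem_mul hs (Subalgebra.mul_mem _ hx_mem hv)
            · rw [← mul_assoc]
              exact Submodule.mul_mem_mul
                (Subalgebra.mul_mem _ (Algebra.subset_adjoin hy) hs) hv
          · intro p q hp hq
            rw [mul_add]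
            exact Submodule.add_mem _ hp hq
        | algebraMap r =>
          intro w hw
          rw [← Algebra.smul_def]
          exact Submodule.smul_mem _ r hw
        | add p q _ _ hp hq =>
          intro w hw
          rw [add_mul]
          exact Submodule.add_mem _ (hp w hw) (hq w hw)
        | mul p q _ _ hp hq =>
          intro w hw
          rw [mul_assoc]
          exact hp _ (hq w hw)
      have hone : (1 : D) ∈ W := by
        have := Submodule.mul_mem_mul
          (show (1 : D) ∈ Subalgebra.toSubmodule (Algebra.adjoin k S) from Subalgebra.one_mem _)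
          (show (1 : D) ∈ Subalgebra.toSubmodule (Algebra.adjoin k {x}) from
            Subalgebra.one_mem _)
        rwa [one_mul] at this
      have hle : Subalgebra.toSubmodule (Algebra.adjoin k (insert x S)) ≤ W := by
        intro t ht
        have := hstab t ht 1 hone
        rwa [mul_one] at this
      have : FiniteDimensional k W := Module.Finite.iff_fg.mpr hWfg
      have hfd : FiniteDimensional k
          (Subalgebra.toSubmodule (Algebra.adjoin k (insert x S))) :=
        Submodule.finiteDimensional_of_le hle
      exact Module.Finite.iff_fg.mp hfd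
  exact Module.Finite.iff_fg.mpr key

/-- Let `k` be a field such that for every finite field extension `E` of `k`, every finite
separable field extension `K ≠ E` of `E` has a non-identity `E`-automorphism, and let `D` be a
division ring that is an algebraic `k`-algebra.  Then every element `a` of `D` outside the centre
that is separable over the centre lies in a `k`-subalgebra of `D` that is finite-dimensional over
`k` and in which `a` is not central. -/
theorem exists_fd_subalgebra_of_separable (k : Type u) [Field k]
    (hAut : ∀ (E : Type v) [Field E] [Algebra k E], FiniteDimensional k E →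
      ∀ (K : Type v) [Field K] [Algebra E K], FiniteDimensional E K →
        Algebra.IsSeparable E K → (∃ x : K, x ∉ Set.range (algebraMap E K)) →
        ∃ σ : K ≃ₐ[E] K, σ ≠ AlgEquiv.refl)
    (D : Type v) [DivisionRing D] [Algebra k D] [Algebra.IsAlgebraic k D]
    (a : D) (ha_notin : a ∉ Subring.center D) (ha_sep : IsSeparable (Subring.center D) a) :
    ∃ Δ : Subalgebra k D, FiniteDimensional k Δ ∧ a ∈ Δ ∧ ∃ y ∈ Δ, a * y ≠ y * a := by
  classical
  -- the centre `Z` of `D` as a `k`-algebra
  let f0 : k →+* Subring.center D :=
    (algebraMap k D).codRestrict (Subring.center D)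
      (fun c => Subring.mem_center_iff.mpr (fun t => (Algebra.commutes c t).symm))
  let algkZ : Algebra k (Subring.center D) := f0.toAlgebra
  have towkZD : IsScalarTower k (Subring.center D) D :=
    IsScalarTower.of_algebraMap_eq (fun c => rfl)
  have hint : ∀ x : D, IsIntegral k x := fun x =>
    (Algebra.IsAlgebraic.isAlgebraic (R := k) x).isIntegral
  have algZD : Algebra.IsAlgebraic (Subring.center D) D :=
    ⟨fun x => ((hint x).tower_top (A := Subring.center D)).isAlgebraic⟩
  have centZD : Algebra.IsCentral (Subring.center D) D := by
    refine ⟨fun x hx => ?_⟩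
    have hx' : x ∈ Subring.center D :=
      Subring.mem_center_iff.mpr (fun t => Subalgebra.mem_center_iff.mp hx t)
    exact Algebra.mem_bot.mpr ⟨⟨x, hx'⟩, rfl⟩
  have ha_int : IsIntegral (Subring.center D) a := (hint a).tower_top
  -- the field `E` generated over `k` by the coefficients of the minimal polynomial of `a`
  have hZint : ∀ z : Subring.center D, IsIntegral k z := fun z =>
    (isIntegral_algebraMap_iff (A := Subring.center D) (B := D) Subtype.val_injective).mp
      (hint (z : D))
  set E : IntermediateField k (Subring.center D) :=
    IntermediateField.adjoin k (↑(minpoly (Subring.center D) a).coeffs : Set (Subring.center D))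
    with hE
  have hEfd : FiniteDimensional k E :=
    IntermediateField.finiteDimensional_adjoin (fun z _ => hZint z)
  have hlift : minpoly (Subring.center D) a ∈ Polynomial.lifts (algebraMap E (Subring.center D)) := by
    rw [lifts_iff_coeff_lifts]
    intro n
    by_cases h0 : (minpoly (Subring.center D) a).coeff n = 0
    · exact ⟨0, by rw [map_zero, h0]⟩
    · exact ⟨⟨(minpoly (Subring.center D) a).coeff n,
        IntermediateField.subset_adjoin k _ (coeff_mem_coeffs h0)⟩, rfl⟩
  obtain ⟨g, hg⟩ := (mem_lifts _).mp hlift
  have algED : Algebra.IsAlgebraic E D :=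
    ⟨fun x => ((hint x).tower_top (A := E)).isAlgebraic⟩
  have hmonic : g.Monic :=
    monic_of_injective (algebraMap E (Subring.center D)).injective (hg ▸ minpoly.monic ha_int)
  have hirr : Irreducible g :=
    Monic.irreducible_of_irreducible_map (algebraMap E (Subring.center D)) g hmonic
      (hg ▸ minpoly.irreducible ha_int)
  have : Fact (Irreducible g) := ⟨hirr⟩
  have hg0 : g ≠ 0 := hirr.ne_zero
  have hga : aeval a g = 0 := by
    rw [← aeval_map_algebraMap (Subring.center D) a g, hg, minpoly.aeval]
  have hgsep : g.Separable := by
    have h1 : (g.map (algebraMap E (Subring.center D))).Separable := hg ▸ ha_sep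
    exact (separable_map (algebraMap E (Subring.center D))).mp h1
  have hfd : FiniteDimensional E (AdjoinRoot g) := (AdjoinRoot.powerBasis hg0).finite
  have hroot_sep : IsSeparable E (AdjoinRoot.root g) := by
    unfold IsSeparable
    rw [AdjoinRoot.minpoly_root hg0, hmonic.leadingCoeff, inv_one, map_one, mul_one]
    exact hgsep
  have hsep : Algebra.IsSeparable E (AdjoinRoot g) := by
    refine ⟨fun y => ?_⟩
    have h1 : Algebra.adjoin E ({AdjoinRoot.root g} : Set (AdjoinRoot g))
        ≤ (separableClosure E (AdjoinRoot g)).toSubalgebra := by
      apply Algebra.adjoin_le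
      intro z hz
      rw [Set.mem_singleton_iff] at hz
      subst hz
      exact hroot_sep
    rw [AdjoinRoot.adjoinRoot_eq_top] at h1
    exact h1 (Algebra.mem_top : y ∈ (⊤ : Subalgebra E (AdjoinRoot g)))
  have hroot_notin : AdjoinRoot.root g ∉ Set.range (algebraMap E (AdjoinRoot g)) := by
    rintro ⟨c, hc⟩
    apply ha_notin
    have h1 : aeval (AdjoinRoot.root g) (X - C c) = 0 := by
      simp [← hc]
    have h2 : g ∣ X - C c :=
      AdjoinRoot.mk_eq_zero.mp ((AdjoinRoot.aeval_eq (X - C c)).symm.trans h1)
    have h3 : aeval a (X - C c) = 0 := by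
      obtain ⟨q, hq⟩ := h2
      rw [hq, map_mul, hga, zero_mul]
    have h4 : a = algebraMap E D c := by
      simpa [sub_eq_zero] using h3
    rw [h4, IsScalarTower.algebraMap_apply E (Subring.center D) D c]
    exact (algebraMap E (Subring.center D) c).2
  obtain ⟨σ, hσ⟩ := hAut E hEfd (AdjoinRoot g) hfd hsep ⟨_, hroot_notin⟩
  obtain ⟨u, hu, hfdΔ⟩ := exists_noncomm_fd_of_tower a g hg σ hσ
  -- the noncommutative subalgebra is finite-dimensional over `k`
  have : IsScalarTower k E (Algebra.adjoin E ({a, u} : Set D)) :=
    ⟨fun c e x => Subtype.ext (smul_assoc c e (x : D))⟩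
  have hfdk : FiniteDimensional k (Algebra.adjoin E ({a, u} : Set D)) :=
    Module.Finite.trans E _
  have haΔ : a ∈ Algebra.adjoin E ({a, u} : Set D) := Algebra.subset_adjoin (by simp)
  have huΔ : u ∈ Algebra.adjoin E ({a, u} : Set D) := Algebra.subset_adjoin (by simp)
  refine ⟨(Algebra.adjoin E ({a, u} : Set D)).restrictScalars k, ?_, haΔ, u, huΔ, hu⟩
  exact hfdk

/-- Let `k` be a field such that for every finite field extension `E` of `k`, every finite
separable field extension `K ≠ E` of `E` has a non-identity `E`-automorphism.  Then every
noncommutative division ring that is an algebraic `k`-algebra contains a noncommutative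
`k`-subalgebra that is finite-dimensional over `k`. -/
theorem exists_noncomm_fd_subalgebra (k : Type u) [Field k]
    (hAut : ∀ (E : Type v) [Field E] [Algebra k E], FiniteDimensional k E →
      ∀ (K : Type v) [Field K] [Algebra E K], FiniteDimensional E K →
        Algebra.IsSeparable E K → (∃ x : K, x ∉ Set.range (algebraMap E K)) →
        ∃ σ : K ≃ₐ[E] K, σ ≠ AlgEquiv.refl)
    (D : Type v) [DivisionRing D] [Algebra k D] [Algebra.IsAlgebraic k D]
    (hnc : ∃ x y : D, x * y ≠ y * x) :
    ∃ Δ : Subalgebra k D, FiniteDimensional k Δ ∧ ∃ x ∈ Δ, ∃ y ∈ Δ, x * y ≠ y * x := by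
  obtain ⟨x₀, y₀, hxy⟩ := hnc
  have hint : ∀ x : D, IsIntegral k x := fun x =>
    (Algebra.IsAlgebraic.isAlgebraic (R := k) x).isIntegral
  let f0 : k →+* Subring.center D :=
    (algebraMap k D).codRestrict (Subring.center D)
      (fun c => Subring.mem_center_iff.mpr (fun t => (Algebra.commutes c t).symm))
  let algkZ : Algebra k (Subring.center D) := f0.toAlgebra
  have towkZD : IsScalarTower k (Subring.center D) D :=
    IsScalarTower.of_algebraMap_eq (fun c => rfl)
  have algZD : Algebra.IsAlgebraic (Subring.center D) D :=
    ⟨fun x => ((hint x).tower_top (A := Subring.center D)).isAlgebraic⟩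
  have H : Subring.center D ≠ ⊤ := by
    intro h
    have hx : x₀ ∈ Subring.center D := h ▸ Subring.mem_top x₀
    exact hxy (Subring.mem_center_iff.mp hx y₀).symm
  obtain ⟨a, ha_notin, ha_sep⟩ := JacobsonNoether.exists_separable_and_not_isCentral D H
  obtain ⟨Δ, hfd, haΔ, y, hy, hne⟩ :=
    exists_fd_subalgebra_of_separable k hAut D a ha_notin ha_sep
  exact ⟨Δ, hfd, a, haΔ, y, hy, hne⟩

/-- Kurosh's original formulation for a class of central subfields.  Let `k` be a field such
that (1) every division ring that is a finite-dimensional `k`-algebra is commutative and (2) for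
every finite field extension `E` of `k`, every finite separable field extension `K ≠ E` of `E`
has a non-identity `E`-automorphism.  Then every division ring that is an algebraic `k`-algebra
is commutative. -/
theorem commutative_of_algebraic (k : Type u) [Field k]
    (hBr : ∀ (Δ : Type v) [DivisionRing Δ] [Algebra k Δ], FiniteDimensional k Δ →
      ∀ x y : Δ, x * y = y * x)
    (hAut : ∀ (E : Type v) [Field E] [Algebra k E], FiniteDimensional k E →
      ∀ (K : Type v) [Field K] [Algebra E K], FiniteDimensional E K →
        Algebra.IsSeparable E K → (∃ x : K, x ∉ Set.range (algebraMap E K)) →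
        ∃ σ : K ≃ₐ[E] K, σ ≠ AlgEquiv.refl)
    (D : Type v) [DivisionRing D] [Algebra k D] [Algebra.IsAlgebraic k D] :
    ∀ x y : D, x * y = y * x := by
  by_contra hcon
  simp only [not_forall] at hcon
  obtain ⟨x₀, y₀, hxy⟩ := hcon
  obtain ⟨Δ, hfd, x, hx, y, hy, hne⟩ := exists_noncomm_fd_subalgebra k hAut D ⟨x₀, y₀, hxy⟩
  let _ : DivisionRing Δ := divisionRingOfFiniteDimensional k Δ
  have hc := hBr Δ hfd ⟨x, hx⟩ ⟨y, hy⟩
  exact hne (congrArg Subtype.val hc)

end Vale.Agent.Lib.P199
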